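import Vale.Agent.P243.CoplanarCore

open MeasureTheory Set

namespace Vale.Agent.Results.P243.Coplanar

/-- The projection of `ℝ³` along the horizontal direction `u = (-n.2, n.1, 0)`, written in the
coordinates `(⟨p, (n.1, n.2, 0)⟩, z)` of the plane `u^⊥`.  When `n` is a unit vector these
coordinates are orthonormal, so this is the orthogonal projection onto `u^⊥` and the planar
Lebesgue measure of a set of coordinate pairs is its Euclidean area.  The cylinder with axis
direction `u` and base `B` is the preimage of `B`. -/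
def proj (n : ℝ × ℝ) (p : ℝ × ℝ × ℝ) : ℝ × ℝ := (n.1 * p.1 + n.2 * p.2.1, p.2.2)

/-- Bang's half-area inequality for cylinders whose axes are all parallel to one plane (taken to be
the plane `z = 0`): if a compact convex set `K ⊆ ℝ³` is covered by finitely many cylinders with
arbitrary measurable bases `B i` and arbitrary horizontal axis directions, and every orthogonal
projection of `K` along a horizontal direction has area at least `A`, then the total base area is
at least `A / 2`. -/
theorem result {ι : Type*} [Fintype ι]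
    (K : Set (ℝ × ℝ × ℝ)) (hKconv : Convex ℝ K) (hKcomp : IsCompact K)
    (n : ι → ℝ × ℝ) (hn : ∀ i, (n i).1 ^ 2 + (n i).2 ^ 2 = 1)
    (B : ι → Set (ℝ × ℝ)) (hB : ∀ i, MeasurableSet (B i))
    (hcov : K ⊆ ⋃ i, proj (n i) ⁻¹' B i)
    (A : ℝ) (hA : ∀ m : ℝ × ℝ, m.1 ^ 2 + m.2 ^ 2 = 1 → ENNReal.ofReal A ≤ volume (proj m '' K)) :
    ENNReal.ofReal (A / 2) ≤ ∑ i, volume (B i) := by
  refine Vale.Agent.P243.coplanar_core K hKconv hKcomp n hn B hB ?_ A hA
  intro p hp
  obtain ⟨i, hi⟩ := mem_iUnion.1 (hcov hp)
  exact ⟨i, hi⟩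

end Vale.Agent.Results.P243.Coplanar
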