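import Vale.Agent.P243.Sym5

open MeasureTheory Set

namespace Vale.Agent.Results.P243.Symmetric

/-- Cylinder coverings of centrally symmetric convex bodies in `ℝ³ = ℝ × ℝ × ℝ`.

A cylinder is given by a linear automorphism `e i` of `ℝ³` and a measurable set `B i ⊆ ℝ²`: it is
the set of all `x` with `(e i x).2 ∈ B i`, where `(e i x).2` consists of the last two coordinates
of `e i x`.  Its axis is the line `{x | (e i x).2 = 0}`, which can be any line through the origin.
If `u, a, b` is an orthonormal basis and `e i x = (⟨x,u⟩, ⟨x,a⟩, ⟨x,b⟩)`, then `(e i x).2` is the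
orthogonal projection of `x` onto `u^⊥` in orthonormal coordinates, `B i` is the base of the
cylinder `B i + ℝ u`, and planar Lebesgue measure is Euclidean area in `u^⊥`.

If a centrally symmetric convex body `K` is covered by finitely many cylinders, then the
directionwise relative area of the covering is at least `19/48`. -/
theorem result {ι : Type*} [Fintype ι] (K : Set (ℝ × ℝ × ℝ)) (hKconv : Convex ℝ K)
    (hKcomp : IsCompact K) (hKint : (interior K).Nonempty) (hKsymm : ∀ x ∈ K, -x ∈ K)
    (e : ι → (ℝ × ℝ × ℝ) ≃L[ℝ] (ℝ × ℝ × ℝ)) (B : ι → Set (ℝ × ℝ))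
    (hB : ∀ i, MeasurableSet (B i)) (hcov : K ⊆ ⋃ i, {x | (e i x).2 ∈ B i}) :
    19 / 48 ≤ ∑ i, volume (B i) / volume ((fun x => (e i x).2) '' K) :=
  Vale.Agent.P243.symmetric_core K hKconv hKcomp hKint hKsymm e B hB hcov

end Vale.Agent.Results.P243.Symmetric
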