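import Vale.Agent.P243.Perp

open MeasureTheory Set

namespace Vale.Agent.Results.P243.TwoDirections

/-- The projection of `ℝ³` along the horizontal direction `u = (-n.2, n.1, 0)`, written in the
coordinates `(⟨p, (n.1, n.2, 0)⟩, z)` of the plane `u^⊥`.  When `n` is a unit vector these
coordinates are orthonormal, so this is the orthogonal projection onto `u^⊥` and the planar
Lebesgue measure of a set of coordinate pairs is its Euclidean area.  The cylinder with axis
direction `u` and base `B` is the preimage of `B`. -/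
def proj (n : ℝ × ℝ) (p : ℝ × ℝ × ℝ) : ℝ × ℝ := (n.1 * p.1 + n.2 * p.2.1, p.2.2)

/-- If a convex body in `ℝ³` is covered by finitely many cylinders (with arbitrary measurable
bases) whose axes are parallel to two directions, then the directionwise relative area of the
covering is at least `1/2`. -/
theorem result {ι κ : Type*} [Fintype ι] [Fintype κ]
    (K : Set (ℝ × ℝ × ℝ)) (hKconv : Convex ℝ K) (hKcomp : IsCompact K)
    (hKint : (interior K).Nonempty)
    (n₁ n₂ : ℝ × ℝ) (hn : n₁.1 * n₂.2 - n₁.2 * n₂.1 ≠ 0)
    (B : ι → Set (ℝ × ℝ)) (C : κ → Set (ℝ × ℝ))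
    (hB : ∀ i, MeasurableSet (B i)) (hC : ∀ j, MeasurableSet (C j))
    (hcov : K ⊆ (⋃ i, proj n₁ ⁻¹' B i) ∪ (⋃ j, proj n₂ ⁻¹' C j)) :
    1 / 2 ≤ (∑ i, volume (B i) / volume (proj n₁ '' K))
      + ∑ j, volume (C j) / volume (proj n₂ '' K) := by
  set D : ℝ := n₁.1 * n₂.2 - n₁.2 * n₂.1 with hD
  -- the linear change of coordinates making the two axis directions perpendicular
  set L : ℝ × ℝ × ℝ → ℝ × ℝ × ℝ :=
    fun p => (n₂.1 * p.1 + n₂.2 * p.2.1, n₁.1 * p.1 + n₁.2 * p.2.1, p.2.2) with hL
  set M : ℝ × ℝ × ℝ → ℝ × ℝ × ℝ :=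
    fun q => ((n₂.2 * q.2.1 - n₁.2 * q.1) / D, (n₁.1 * q.1 - n₂.1 * q.2.1) / D, q.2.2) with hM
  have hLc : Continuous L := by fun_prop
  have hMc : Continuous M := by fun_prop
  have hLM : Function.LeftInverse L M := by
    intro q
    ext
    · simp only [hL, hM]
      field_simp
      rw [hD]; ring
    · simp only [hL, hM]
      field_simp
      rw [hD]; ring
    · simp only [hL, hM]
  have hML : Function.RightInverse L M := by
    intro p
    ext
    · simp only [hL, hM]
      field_simp
      rw [hD]; ring
    · simp only [hL, hM]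
      field_simp
      rw [hD]; ring
    · simp only [hL, hM]
  have hLopen : IsOpenMap L := IsOpenMap.of_inverse hMc hLM hML
  have hLlin : IsLinearMap ℝ L := by
    constructor
    · intro p q
      ext
      · simp only [hL, Prod.fst_add, Prod.snd_add]; ring
      · simp only [hL, Prod.fst_add, Prod.snd_add]; ring
      · simp only [hL, Prod.snd_add]
    · intro t p
      ext
      · simp only [hL, Prod.smul_fst, Prod.smul_snd, smul_eq_mul]; ring
      · simp only [hL, Prod.smul_fst, Prod.smul_snd, smul_eq_mul]; ring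
      · simp only [hL, Prod.smul_snd, smul_eq_mul]
  have hint : (interior (L '' K)).Nonempty :=
    (hKint.image L).mono
      (interior_maximal (image_mono interior_subset) (hLopen _ isOpen_interior))
  have hmain := Vale.Agent.P243.two_perp (L '' K) (hKconv.is_linear_image hLlin)
    (hKcomp.image hLc) hint (⋃ i, B i) (⋃ j, C j) (MeasurableSet.iUnion hB)
    (MeasurableSet.iUnion hC) (by
      rintro _ ⟨p, hp, rfl⟩
      rcases hcov hp with h | h
      · left
        obtain ⟨i, hi⟩ := mem_iUnion.1 h
        exact mem_iUnion.2 ⟨i, hi⟩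
      · right
        obtain ⟨j, hj⟩ := mem_iUnion.1 h
        exact mem_iUnion.2 ⟨j, hj⟩)
  have e1 : Prod.snd '' (L '' K) = proj n₁ '' K := by
    rw [image_image]; rfl
  have e2 : (fun p : ℝ × ℝ × ℝ => (p.1, p.2.2)) '' (L '' K) = proj n₂ '' K := by
    rw [image_image]; rfl
  rw [e1, e2] at hmain
  refine hmain.trans (add_le_add ?_ ?_)
  · calc volume (⋃ i, B i) / volume (proj n₁ '' K)
        ≤ (∑ i, volume (B i)) / volume (proj n₁ '' K) :=
          ENNReal.div_le_div_right (measure_iUnion_fintype_le _ _) _
      _ = ∑ i, volume (B i) / volume (proj n₁ '' K) := by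
          simp only [div_eq_mul_inv, Finset.sum_mul]
  · calc volume (⋃ j, C j) / volume (proj n₂ '' K)
        ≤ (∑ j, volume (C j)) / volume (proj n₂ '' K) :=
          ENNReal.div_le_div_right (measure_iUnion_fintype_le _ _) _
      _ = ∑ j, volume (C j) / volume (proj n₂ '' K) := by
          simp only [div_eq_mul_inv, Finset.sum_mul]

end Vale.Agent.Results.P243.TwoDirections
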